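import Vale.Agent.P224.R2.H444.FarG
import Vale.Agent.P224.R2.H797.Q200b.Main

/-!
**The far range in the dimensions from 200 on**, in the form of the assembly.
-/

namespace Vale.Agent.P224.R2.H444

open MeasureTheory Set Function Module Vale.Agent.P224
open scoped Topology RealInnerProductSpace ENNReal ContDiff Manifold

set_option linter.unusedSectionVars false

variable {V W M : Type*} [NormedAddCommGroup V] [InnerProductSpace ℝ V] [FiniteDimensional ℝ V]
  [NormedAddCommGroup W] [InnerProductSpace ℝ W] [FiniteDimensional ℝ W]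
  [TopologicalSpace M] [ChartedSpace V M]
  [MeasurableSpace V] [BorelSpace V] [MeasurableSpace M] [BorelSpace M]
  [MeasurableSpace W] [BorelSpace W] [IsManifold 𝓘(ℝ, V) ∞ M]
  [CompactSpace M] [T2Space M] [ConnectedSpace M]

/-- **The far range in the dimensions from 200 on**: the mean normal has norm less than `ν`, for
every `ν` from `57 / 10000` on. -/
theorem far_200_le {ν : ℝ} (hν : 57 / 10000 ≤ ν) (hm : 200 ≤ finrank ℝ V)
    (hW : finrank ℝ W = finrank ℝ V + 2)
    {F : M → W} (hF : SphImm V F) (hmin : ∀ x n, IsUnitNormal V F x n → meanCurv V F x n = 0)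
    (hng : ¬ ∃ a : W, a ≠ 0 ∧ ∀ x, ⟪F x, a⟫ = 0)
    (N : M → W) (hNs : ContMDiff 𝓘(ℝ, V) 𝓘(ℝ, W) ∞ N) (hN : ∀ x, IsUnitNormal V F x (N x))
    (htop : ‖∫ x, N x ∂(volM V F)‖ ≤ sphereVol (finrank ℝ V))
    (hhi : (volM V F).real univ ≤ leastClifford (finrank ℝ V)) :
    ‖∫ x, N x ∂(volM V F)‖ < ν * (volM V F).real univ :=
  far_of_e hW hF fun _ he => (H797.Q200b.far_lc hm hW hF hmin hng hNs hN htop he hhi).trans_le hν

/-- **The far range in the dimensions from 200 on**: the mean normal has norm less than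
`59 / 10000`. -/
theorem far_200 (hm : 200 ≤ finrank ℝ V) (hW : finrank ℝ W = finrank ℝ V + 2)
    {F : M → W} (hF : SphImm V F) (hmin : ∀ x n, IsUnitNormal V F x n → meanCurv V F x n = 0)
    (hng : ¬ ∃ a : W, a ≠ 0 ∧ ∀ x, ⟪F x, a⟫ = 0)
    (N : M → W) (hNs : ContMDiff 𝓘(ℝ, V) 𝓘(ℝ, W) ∞ N) (hN : ∀ x, IsUnitNormal V F x (N x))
    (htop : ‖∫ x, N x ∂(volM V F)‖ ≤ sphereVol (finrank ℝ V))
    (hhi : (volM V F).real univ ≤ leastClifford (finrank ℝ V)) :
    ‖∫ x, N x ∂(volM V F)‖ < 59 / 10000 * (volM V F).real univ :=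
  far_200_le (by norm_num) hm hW hF hmin hng N hNs hN htop hhi

end Vale.Agent.P224.R2.H444
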