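import Vale.Agent.P224.Bdl.B2

/-!
The far range in the form of the assembly, from the form with the mean normal.
-/

namespace Vale.Agent.P224.R2.H444

open MeasureTheory Set Function Module Vale.Agent.P224
open scoped Topology RealInnerProductSpace ENNReal ContDiff Manifold

set_option linter.unusedSectionVars false

variable {V W M : Type*} [NormedAddCommGroup V] [InnerProductSpace ℝ V] [FiniteDimensional ℝ V]
  [NormedAddCommGroup W] [InnerProductSpace ℝ W] [FiniteDimensional ℝ W]
  [TopologicalSpace M] [ChartedSpace V M]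
  [MeasurableSpace V] [BorelSpace V] [MeasurableSpace M] [BorelSpace M]
  [MeasurableSpace W] [BorelSpace W] [IsManifold 𝓘(ℝ, V) ∞ M]
  [CompactSpace M] [T2Space M] [ConnectedSpace M]

/-- the volume of a regular hypersurface is positive -/
lemma vol_pos (hW : finrank ℝ W = finrank ℝ V + 2) {F : M → W} (hF : SphImm V F) :
    0 < (volM V F).real univ := by
  have hfin : IsFiniteMeasure (volM V F) := isFiniteMeasure_volM hF
  have hvpos : 0 < volM V F univ := volM_pos_of_isOpen hW hF isOpen_univ univ_nonempty
  exact ENNReal.toReal_pos hvpos.ne' (measure_ne_top _ _)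

/-- the far range from the form with the mean normal -/
lemma far_of_e (hW : finrank ℝ W = finrank ℝ V + 2) {F : M → W} (hF : SphImm V F) {N : M → W}
    {ν : ℝ} (h : ∀ e : W, (volM V F).real univ • e = ∫ x, N x ∂(volM V F) → ‖e‖ < ν) :
    ‖∫ x, N x ∂(volM V F)‖ < ν * (volM V F).real univ := by
  have hA : 0 < (volM V F).real univ := vol_pos hW hF
  set A := (volM V F).real univ with hAd
  have h1 := h (A⁻¹ • ∫ x, N x ∂(volM V F)) (smul_inv_smul₀ hA.ne' _)
  rw [norm_smul, Real.norm_eq_abs, abs_of_pos (inv_pos.2 hA), inv_mul_lt_iff₀ hA] at h1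
  linarith

end Vale.Agent.P224.R2.H444
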